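-- Statement S0167 (row 125): exact asymptotic moduli of Daugavet subspaces of L¹ whose unit ball is
-- totally bounded in measure.  Team proof: L¹ lower bound, one-sided bounds, glue (helper6);
-- the Daugavet "D1" lemma (helper9, with helper1's farthest-point geometry); C5 (helper5).
import Crest.Statements.S0167
import Crest.Agent.Helper5.Row125Core
import Crest.Agent.Helper6.S0167L1
import Crest.Agent.Helper9.DaugavetD1

set_option autoImplicit false
open Crest Crest.AnalysisR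

namespace Crest.Agent.S0167

/-- Let E be an infinite-dimensional closed subspace of the real L¹ of a probability space whose closed unit ball is totally bounded for convergence in measure and whose norm has the Daugavet property. Then at every unit x ∈ E and every t > 0 the averaged midpoint quantity sup_F inf_y ((‖x+ty‖+‖x-ty‖)/2 - 1) equals max(t/2, t-1) and the one-sided one sup_F inf_y (‖x+ty‖ - 1) equals max(0, t-2), as matching lower and upper bounds, and E admits no equivalent asymptotically uniformly convex norm. -/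
theorem result (Ω : Type) [MeasurableSpace Ω] (P : MeasureTheory.Measure Ω) [MeasureTheory.IsProbabilityMeasure P]
    (E : Submodule ℝ (MeasureTheory.Lp ℝ 1 P)) (hcl : IsClosed (E : Set (MeasureTheory.Lp ℝ 1 P)))
    (hinf : ¬ FiniteDimensional ℝ E)
    (htb : Crest.AnalysisR.L1Subspace.UnitBallTotallyBoundedInMeasure P E)
    (hD : Crest.AnalysisR.L1Subspace.HasDaugavetProperty E) :
    (∀ t : ℝ, 0 < t →
      (Crest.AnalysisR.L1Subspace.toRealBanach P E hcl).MidpointModulusGE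
          (Crest.AnalysisR.L1Subspace.toRealBanach P E hcl).norm t (max (t / 2) (t - 1)) ∧
        (Crest.AnalysisR.L1Subspace.toRealBanach P E hcl).MidpointModulusLE
          (Crest.AnalysisR.L1Subspace.toRealBanach P E hcl).norm t (max (t / 2) (t - 1)) ∧
        (Crest.AnalysisR.L1Subspace.toRealBanach P E hcl).OneSidedModulusGE
          (Crest.AnalysisR.L1Subspace.toRealBanach P E hcl).norm t (max 0 (t - 2)) ∧
        (Crest.AnalysisR.L1Subspace.toRealBanach P E hcl).OneSidedModulusLE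
          (Crest.AnalysisR.L1Subspace.toRealBanach P E hcl).norm t (max 0 (t - 2))) ∧
      ∀ N : E → ℝ, (Crest.AnalysisR.L1Subspace.toRealBanach P E hcl).IsEquivNorm N →
        ¬ (Crest.AnalysisR.L1Subspace.toRealBanach P E hcl).IsAUC N := by
  have hD1 : Crest.Agent.Helper6.S0167.D1Prop E := fun x hx S hS hfd ε hε =>
    haveI := hfd
    Crest.Agent.Helper9.daugavet_D1 hD x hx S hS ε hε
  -- the four modulus bounds, stated on `E` with its subspace norm
  have hA : ∀ t : ℝ, 0 < t → ∀ x : E, ‖x‖ = 1 → ∀ η : ℝ, 0 < η → ∃ F : Set E,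
      (∃ S : Submodule ℝ E, (S : Set E) = F ∧ IsClosed F ∧ FiniteDimensional ℝ (E ⧸ S)) ∧
      ∀ y ∈ F, ‖y‖ = 1 →
        max (t / 2) (t - 1) - η ≤ (‖x + t • y‖ + ‖x - t • y‖) / 2 - 1 := by
    intro t ht x hx η hη
    obtain ⟨S, hScl, hSfd, h⟩ := Crest.Agent.Helper6.S0167.midpointGE_L1 E htb x hx t ht η hη
    exact ⟨(S : Set E), ⟨S, rfl, hScl, hSfd⟩, fun y hy hy1 => h y hy hy1⟩
  have hB : ∀ t : ℝ, 0 < t → ∀ x : E, ‖x‖ = 1 → ∀ F : Set E,
      (∃ S : Submodule ℝ E, (S : Set E) = F ∧ IsClosed F ∧ FiniteDimensional ℝ (E ⧸ S)) →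
      ∀ η : ℝ, 0 < η → ∃ y ∈ F, ‖y‖ = 1 ∧
        (‖x + t • y‖ + ‖x - t • y‖) / 2 - 1 ≤ max (t / 2) (t - 1) + η := by
    intro t ht x hx F hF η hη
    obtain ⟨S, rfl, hScl, hSfd⟩ := hF
    obtain ⟨y, hyS, hy1, hy⟩ :=
      Crest.Agent.Helper6.S0167.midpointLE_of_D1 hD1 t ht x hx S hScl hSfd η hη
    exact ⟨y, hyS, hy1, hy⟩
  have hC : ∀ t : ℝ, 0 < t → ∀ x : E, ‖x‖ = 1 → ∀ η : ℝ, 0 < η → ∃ F : Set E,
      (∃ S : Submodule ℝ E, (S : Set E) = F ∧ IsClosed F ∧ FiniteDimensional ℝ (E ⧸ S)) ∧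
      ∀ y ∈ F, ‖y‖ = 1 → max 0 (t - 2) - η ≤ ‖x + t • y‖ - 1 := by
    intro t ht x hx η hη
    obtain ⟨S, hScl, hSfd, h⟩ := Crest.Agent.Helper6.S0167.oneSidedGE x hx t ht
    refine ⟨(S : Set E), ⟨S, rfl, hScl, hSfd⟩, fun y hy hy1 => ?_⟩
    have h1 : max 0 (t - 2) ≤ ‖x + t • y‖ - 1 := h y hy hy1
    linarith
  have hE : ∀ t : ℝ, 0 < t → ∀ x : E, ‖x‖ = 1 → ∀ F : Set E,
      (∃ S : Submodule ℝ E, (S : Set E) = F ∧ IsClosed F ∧ FiniteDimensional ℝ (E ⧸ S)) →
      ∀ η : ℝ, 0 < η → ∃ y ∈ F, ‖y‖ = 1 ∧ ‖x + t • y‖ - 1 ≤ max 0 (t - 2) + η := by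
    intro t ht x hx F hF η hη
    obtain ⟨S, rfl, hScl, hSfd⟩ := hF
    obtain ⟨y, hyS, hy1, hy⟩ :=
      Crest.Agent.Helper6.S0167.oneSidedLE_of_D1 hD1 t ht x hx S hScl hSfd η hη
    exact ⟨y, hyS, hy1, hy⟩
  have hne : ∃ x : E, x ≠ 0 := by
    by_contra hcon
    push Not at hcon
    apply hinf
    have : Subsingleton E := ⟨fun a b => by rw [hcon a, hcon b]⟩
    infer_instance
  refine ⟨fun t ht => ⟨hA t ht, hB t ht, hC t ht, hE t ht⟩, ?_⟩
  exact Crest.Agent.Helper5.Row125.not_auc_of_daugavet_like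
    (Crest.AnalysisR.L1Subspace.toRealBanach P E hcl)
    (fun x hx S hS hfd ε hε => hD1 x hx S hS hfd ε hε) hne

end Crest.Agent.S0167
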