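-- Statement S0169 (row 125): tree products in L¹ span an infinite-dimensional space with no
-- equivalent asymptotically uniformly convex norm.
import Crest.Statements.S0169
import Crest.Agent.Helper5.Row125Core
import Crest.Agent.Helper9.TreeProd

set_option autoImplicit false
open MeasureTheory ProbabilityTheory
open Crest Crest.AnalysisR

namespace Crest.Agent.S0169

/-- Let ν be a Borel probability law on ℝ carried by (0,∞), not a point mass, with mean 1 and finite second moment, and W an independent family of real random variables on a probability space indexed by the vertices of the countably branching tree (finite lists of naturals; root [], parent of a :: v is v), each non-root one with law ν. Then the closed linear span in L¹ of the path products ∏_{root ≺ u ≼ v} W_u is infinite-dimensional and has no equivalent asymptotically uniformly convex norm. -/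
theorem result (ν : Measure ℝ) [IsProbabilityMeasure ν] (hpos : ν (Set.Ioi 0) = 1)
    (hnc : ∀ c : ℝ, ν ≠ Measure.dirac c) (hmean : ∫ x, x ∂ν = 1)
    (hm2 : Integrable (fun x : ℝ => x ^ 2) ν)
    (Ω : Type) [MeasurableSpace Ω] (μ : Measure Ω) [IsProbabilityMeasure μ]
    (W : List ℕ → Ω → ℝ) (hW : Crest.AnalysisR.TreeProduct.IsRealization ν μ W) :
    ¬ FiniteDimensional ℝ (Crest.AnalysisR.TreeProduct.productSpan μ W) ∧
      ∀ N : (Crest.AnalysisR.TreeProduct.spanBanach μ W).X → ℝ,
        (Crest.AnalysisR.TreeProduct.spanBanach μ W).IsEquivNorm N →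
          ¬ (Crest.AnalysisR.TreeProduct.spanBanach μ W).IsAUC N := by
  have h : Crest.Agent.Helper9.TreeProd.Hyp ν μ W := ⟨hW, hpos, hmean, hm2⟩
  obtain ⟨δ, C, z, hδ, -, hz1, hzd, hzs⟩ := Crest.Agent.Helper9.TreeProd.tree_data h (hnc 1)
  refine ⟨?_, ?_⟩
  · exact Crest.Agent.Helper5.Row125.not_finiteDimensional_of_cesaro
      (fun i => z [i] - z []) C δ hδ (fun i => (hzd i []).ge) (fun A => hzs [] A)
  · have hδ' : 0 < min δ 1 := lt_min hδ one_pos
    have key : ∀ n : ℕ, ∃ z : List ℕ → TreeProduct.productSpan μ W, min δ 1 ≤ ‖z []‖ ∧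
        (∀ v, v.length ≤ n → ‖z v‖ ≤ 1) ∧
        (∀ v, v.length < n → ∀ i, min δ 1 ≤ ‖z (i :: v) - z v‖) ∧
        (∀ v, v.length < n → ∀ A : Finset ℕ,
          ‖∑ i ∈ A, (z (i :: v) - z v)‖ ≤ C * Real.sqrt A.card) := by
      intro n
      refine ⟨z, ?_, fun v _ => (hz1 v).le, fun v _ i => ?_, fun v _ A => hzs v A⟩
      · rw [hz1]
        exact min_le_right _ _
      · rw [hzd]
        exact min_le_left _ _
    exact Crest.Agent.Helper5.Row125.not_auc_of_trees (TreeProduct.spanBanach μ W) (min δ 1) 1 C
      hδ' key

end Crest.Agent.S0169
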