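-- Statement S0423 (row 280).  Team proof; owner helper7.
-- Upper bound: packages A (helper7), B (helper9, helper6/helper7), C (helper5, lead), D (helper6, helper4).
-- Approximation (second conjunct): helper4.
import Crest.Statements.S0423
import Crest.Agent.Helper7.S0423Peel
import Crest.Agent.Helper7.S0423StepAux
import Crest.Agent.Helper5.S0423Chord
import Crest.Agent.Helper6.S0423Needle
import Crest.Agent.Helper4.S0423NeedleSurv
import Crest.Agent.Helper4.S0423Lower

set_option autoImplicit false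
open Crest Crest.AlgGeometry

namespace Crest.Agent.S0423

/-- For independent mean-one exponential random variables `X_1, …, X_N` (written as an integral over the positive orthant against the density `exp (-(x_1 + ⋯ + x_N))`), real coefficients `a_1, …, a_N` summing to zero, and the weight `g = truncExpWeight`, the quantity `(e^{4/3} / (4/3)) · E[g(4/3 + a_1 X_1 + ⋯ + a_N X_N)]` has supremum over all `N ≥ 1` and all such `a` exactly `(3/4) e^{4/3} − e/3`: it never exceeds this value, and comes within any `ε > 0` of it for some `N` and `a`. -/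
theorem result :
    (∀ (N : ℕ) (a : Fin N → ℝ), 1 ≤ N → ∑ i, a i = 0 →
      Real.exp (4 / 3) / (4 / 3) *
          ∫ x in Set.pi Set.univ (fun _ : Fin N => Set.Ioi (0 : ℝ)),
            Crest.AlgGeometry.truncExpWeight (4 / 3 + ∑ i, a i * x i) * Real.exp (-∑ i, x i)
        ≤ 3 / 4 * Real.exp (4 / 3) - Real.exp 1 / 3) ∧
    (∀ ε : ℝ, 0 < ε → ∃ (N : ℕ) (a : Fin N → ℝ), 1 ≤ N ∧ ∑ i, a i = 0 ∧
      3 / 4 * Real.exp (4 / 3) - Real.exp 1 / 3 - ε <
        Real.exp (4 / 3) / (4 / 3) *
          ∫ x in Set.pi Set.univ (fun _ : Fin N => Set.Ioi (0 : ℝ)),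
            Crest.AlgGeometry.truncExpWeight (4 / 3 + ∑ i, a i * x i) * Real.exp (-∑ i, x i)) := by
  refine ⟨fun N a _ hsum => ?_, Crest.Agent.Helper4.s0423_lower⟩
  have hD : Crest.Agent.Helper5.NeedleFacts :=
    ⟨fun a b ha => (Crest.Agent.Helper4.needle_isSurv a b ha).integrable,
      Crest.Agent.Helper4.needle_smean, Crest.Agent.Helper6.needle_Jw_ge⟩
  have hI := Crest.Agent.Helper7.upper_bound
    (fun {K} hK a => Crest.Agent.Helper7.isSurv_step hK a)
    (fun {K} hK a => Crest.Agent.Helper9.smean_step hK a)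
    (fun {K} hK {a} ha t => Crest.Agent.Helper7.step_lt_one_of_neg hK ha t)
    (fun {K} hK a h t => Crest.Agent.Helper7.step_lt_one hK a h t)
    (fun {K} hK hlt hmean => Crest.Agent.Helper5.tau_le_Jw_of hD hK hlt hmean)
    (fun p hp => Crest.Agent.Helper4.needle_isSurv p 0 hp)
    (fun p hp => by rw [Crest.Agent.Helper4.needle_smean p 0 hp, sub_zero])
    N a hsum
  have h1 : Real.exp (4 / 3) * Real.exp (-(1 / 3)) = Real.exp 1 := by
    rw [← Real.exp_add]; norm_num
  unfold Crest.Agent.Helper7.tau at hI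
  have hpos : (0:ℝ) < Real.exp (4 / 3) / (4 / 3) := by positivity
  calc Real.exp (4 / 3) / (4 / 3) *
          ∫ x in Set.pi Set.univ (fun _ : Fin N => Set.Ioi (0 : ℝ)),
            Crest.AlgGeometry.truncExpWeight (4 / 3 + ∑ i, a i * x i) * Real.exp (-∑ i, x i)
      ≤ Real.exp (4 / 3) / (4 / 3) * (1 - 4 / 9 * Real.exp (-(1 / 3))) :=
        mul_le_mul_of_nonneg_left hI hpos.le
    _ = 3 / 4 * Real.exp (4 / 3) - Real.exp 1 / 3 := by rw [← h1]; ring

end Crest.Agent.S0423
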